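import Crest.Agent.H1Milnor.Core
import Crest.Prelude.Def_MilnorK

/-!
The class map `K → K^× / p`, logarithmic derivatives, and the collineation property.
-/

set_option autoImplicit false

namespace Crest.Agent.H1Milnor

open Polynomial IntermediateField Crest.NumberTheoryR.MilnorK

/-- A type synonym for `KOne`, with a single additive group instance. -/
def V (K : Type*) [Field K] (p : ℕ) : Type _ := KOne K p

instance (K : Type*) [Field K] (p : ℕ) : AddCommGroup (V K p) :=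
  QuotientAddGroup.Quotient.addCommGroup (pMultiples K p)

instance (K : Type*) [Field K] (p : ℕ) : Module (ZMod p) (V K p) := KOne.instModule K p

section cl

variable {K : Type*} [Field K] (p : ℕ)

open Classical in
/-- The class of a field element (junk value `0` at `0`). -/
noncomputable def cl (x : K) : V K p := if h : x = 0 then 0 else cls K p (Units.mk0 x h)

variable {p}

lemma cl_eq {x : K} (h : x ≠ 0) : cl p x = cls K p (Units.mk0 x h) := by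
  simp [cl, h]

lemma cl_unit (u : Kˣ) : cl p (u : K) = cls K p u := by
  rw [cl_eq u.ne_zero, Units.mk0_val]

lemma cls_mul (u v : Kˣ) : cls K p (u * v) = cls K p u + cls K p v := rfl

lemma cl_mul {x y : K} (hx : x ≠ 0) (hy : y ≠ 0) : cl p (x * y) = cl p x + cl p y := by
  rw [cl_eq hx, cl_eq hy, cl_eq (mul_ne_zero hx hy), Units.mk0_mul]
  exact cls_mul _ _

lemma cl_one : cl p (1 : K) = 0 := by
  have := cl_mul (p := p) (one_ne_zero (α := K)) one_ne_zero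
  rw [mul_one] at this
  exact left_eq_add.1 this

lemma cl_pow {x : K} (hx : x ≠ 0) (n : ℕ) : cl p (x ^ n) = n • cl p x := by
  induction n with
  | zero => simp [cl_one]
  | succ n ih => rw [pow_succ, cl_mul (pow_ne_zero _ hx) hx, ih, succ_nsmul]

lemma cl_div {x y : K} (hx : x ≠ 0) (hy : y ≠ 0) : cl p (x / y) = cl p x - cl p y := by
  rw [eq_sub_iff_add_eq, ← cl_mul (div_ne_zero hx hy) hy, div_mul_cancel₀ _ hy]

lemma cl_surj (v : V K p) : ∃ x : K, x ≠ 0 ∧ cl p x = v := by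
  obtain ⟨u, rfl⟩ := QuotientAddGroup.mk_surjective v
  exact ⟨(Additive.toMul u : Kˣ), Units.ne_zero _, by rw [cl_unit]; rfl⟩

variable [Fact p.Prime] [CharP K p]

lemma cl_eq_zero_iff {x : K} (hx : x ≠ 0) : cl p x = 0 ↔ x ∈ Pw K p := by
  have hp : p.Prime := Fact.out
  rw [cl_eq hx, mem_Pw]
  refine (QuotientAddGroup.eq_zero_iff (N := pMultiples K p)
    (Additive.ofMul (Units.mk0 x hx))).trans ?_
  constructor
  · rintro ⟨u, hu⟩
    refine ⟨(Additive.toMul u : Kˣ), ?_⟩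
    have := congrArg (fun z : Additive Kˣ => ((Additive.toMul z : Kˣ) : K)) hu
    simpa using this
  · rintro ⟨y, hy⟩
    have hy0 : y ≠ 0 := by
      rintro rfl
      rw [zero_pow hp.ne_zero] at hy
      exact hx hy.symm
    refine ⟨Additive.ofMul (Units.mk0 y hy0), ?_⟩
    apply Additive.toMul.injective
    ext
    simpa using hy

lemma cl_eq_iff {x y : K} (hx : x ≠ 0) (hy : y ≠ 0) : cl p x = cl p y ↔ x / y ∈ Pw K p := by
  rw [← cl_eq_zero_iff (div_ne_zero hx hy), cl_div hx hy, sub_eq_zero]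

lemma cl_eq_iff' {x y : K} (hx : x ≠ 0) (hy : y ≠ 0) :
    cl p x = cl p y ↔ ∃ u ∈ Pw K p, u ≠ 0 ∧ x = u * y := by
  rw [cl_eq_iff hx hy]
  constructor
  · intro h
    exact ⟨x / y, h, div_ne_zero hx hy, by field_simp⟩
  · rintro ⟨u, hu, -, rfl⟩
    rwa [mul_div_cancel_right₀ _ hy]

lemma cl_Pw_mul {u x : K} (hu : u ∈ Pw K p) (hu0 : u ≠ 0) (hx : x ≠ 0) :
    cl p (u * x) = cl p x := by
  rw [cl_mul hu0 hx, (cl_eq_zero_iff hu0).2 hu]
  exact zero_add _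

lemma cl_neg {x : K} (hx : x ≠ 0) : cl p (-x) = cl p x := by
  rw [← neg_one_mul, cl_Pw_mul (neg_mem (one_mem _)) (neg_ne_zero.2 one_ne_zero) hx]

lemma ne_zero_of_notMem {x : K} (hx : x ∉ Pw K p) : x ≠ 0 := fun h => hx (h ▸ zero_mem _)

lemma one_add_notMem {x : K} (hx : x ∉ Pw K p) : 1 + x ∉ Pw K p := fun h =>
  hx (by simpa using sub_mem h (one_mem _))

/-- The logarithmic derivative, on `K^× / p`. -/
noncomputable def dl (D : Der K p) : V K p →+ K :=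
  QuotientAddGroup.lift (pMultiples K p)
    { toFun := fun u => D ((Additive.toMul u : Kˣ) : K) / ((Additive.toMul u : Kˣ) : K)
      map_zero' := by simp
      map_add' := fun u v => by
        simp only [toMul_add, Units.val_mul, der_mul]
        field_simp
        ring }
    (by
      rintro _ ⟨u, rfl⟩
      have : D (((Additive.toMul u : Kˣ) : K) ^ p) = 0 := der_of_mem D (pow_mem_Pw _)
      simp [this])

lemma dl_cl (D : Der K p) {x : K} (hx : x ≠ 0) : dl D (cl p x) = D x / x := by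
  rw [cl_eq hx]; rfl

variable (K p) in
/-- The Steinberg subspace, on the type synonym. -/
def stein : Submodule (ZMod p) (TensorProduct (ZMod p) (V K p) (V K p)) :=
  Submodule.span (ZMod p)
    {t | ∃ f : K, f ≠ 0 ∧ 1 - f ≠ 0 ∧ t = TensorProduct.tmul (ZMod p) (cl p f) (cl p (1 - f))}

omit [CharP K p] in
lemma stein_eq : stein K p = steinberg K p := by
  unfold stein steinberg
  congr 1
  ext t
  constructor
  · rintro ⟨f, hf, hf1, rfl⟩
    exact ⟨f, hf, hf1, by rw [cl_eq hf, cl_eq hf1]; rfl⟩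
  · rintro ⟨f, hf, hf1, rfl⟩
    exact ⟨f, hf, hf1, by rw [cl_eq hf, cl_eq hf1]; rfl⟩

lemma dep_of_mem_steinberg {X P : K} (hX : X ≠ 0) (hP : P ≠ 0)
    (h : TensorProduct.tmul (ZMod p) (cl p X) (cl p P) ∈ stein K p) : Dep p X P := by
  intro D D'
  let _ : Algebra (ZMod p) K := ZMod.algebra K p
  let a := (dl D).toZModLinearMap p
  let b := (dl D').toZModLinearMap p
  let B : TensorProduct (ZMod p) (V K p) (V K p) →ₗ[ZMod p] K :=
    TensorProduct.lift ((LinearMap.mul (ZMod p) K).compl₁₂ a b -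
      (LinearMap.mul (ZMod p) K).compl₁₂ b a)
  have hB : ∀ u v, B (TensorProduct.tmul (ZMod p) u v) = dl D u * dl D' v - dl D' u * dl D v := by
    intro u v
    simp [B, a, b]
  have hker : stein K p ≤ LinearMap.ker B := by
    rw [stein, Submodule.span_le]
    rintro _ ⟨f, hf, hf1, rfl⟩
    simp only [SetLike.mem_coe, LinearMap.mem_ker]
    rw [hB, dl_cl D hf, dl_cl D' hf, dl_cl D hf1, dl_cl D' hf1,
      map_sub, map_sub, D.map_one_eq_zero, D'.map_one_eq_zero]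
    ring
  have h1 := hker h
  rw [LinearMap.mem_ker, hB, dl_cl D hX, dl_cl D' hX, dl_cl D hP, dl_cl D' hP] at h1
  field_simp at h1
  linear_combination h1

end cl

variable {p : ℕ} [Fact p.Prime]
variable {K L M : Type*} [Field K] [Field L] [Field M] [CharP K p] [CharP L p] [CharP M p]

/-- Weak compatibility: Steinberg pairs go to `p`-dependent pairs. -/
def Weak (Θ : V K p → V L p) : Prop :=
  ∀ f : K, f ≠ 0 → 1 - f ≠ 0 → ∀ X P : L, X ≠ 0 → P ≠ 0 → Θ (cl p f) = cl p X →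
    Θ (cl p (1 - f)) = cl p P → Dep p X P

/-- Compatibility, on the type synonym. -/
def Compat (Θ : V K p ≃ₗ[ZMod p] V L p) : Prop :=
  (stein K p).map (TensorProduct.map Θ.toLinearMap Θ.toLinearMap) = stein L p

omit [CharP K p] [CharP L p] in
lemma compat_of (Θ : KOne K p ≃ₗ[ZMod p] KOne L p) (h : IsCompatible Θ) :
    Compat (K := K) (L := L) (p := p) Θ := by
  unfold Compat
  rw [stein_eq, stein_eq]
  exact h

omit [CharP K p] in
lemma weak_of_compatible (Θ : V K p ≃ₗ[ZMod p] V L p) (h : Compat Θ) : Weak Θ := by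
  intro f hf hf1 X P hX hP h1 h2
  apply dep_of_mem_steinberg hX hP
  rw [← h, ← h1, ← h2]
  exact ⟨_, Submodule.subset_span ⟨f, hf, hf1, rfl⟩, by simp⟩

omit [CharP L p] in
lemma weak_symm_of_compatible (Θ : V K p ≃ₗ[ZMod p] V L p) (h : Compat Θ) :
    Weak Θ.symm := by
  intro f hf hf1 X P hX hP h1 h2
  apply dep_of_mem_steinberg hX hP
  have h3 : TensorProduct.tmul (ZMod p) (cl p f) (cl p (1 - f)) ∈ stein L p :=
    Submodule.subset_span ⟨f, hf, hf1, rfl⟩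
  rw [← h] at h3
  obtain ⟨s, hs, hs'⟩ := h3
  have h4 := congrArg (TensorProduct.map Θ.symm.toLinearMap Θ.symm.toLinearMap) hs'
  rw [← LinearMap.comp_apply, ← TensorProduct.map_comp] at h4
  simp only [LinearEquiv.comp_coe, LinearEquiv.self_trans_symm, LinearEquiv.refl_toLinearMap,
    TensorProduct.map_id, LinearMap.id_coe, id_eq, TensorProduct.map_tmul,
    LinearEquiv.coe_coe] at h4
  rw [← h1, ← h2, ← h4]
  exact hs

/-- Lines through the unit point go to lines through the unit point. -/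
def Lin (Ψ : V K p → V L p) : Prop :=
  ∀ x : K, x ∉ Pw K p → ∃ Z : L, Z ∉ Pw L p ∧ Ψ (cl p x) = cl p Z ∧ Ψ (cl p (1 + x)) = cl p (1 + Z)

lemma Lin.comp {Ψ : V K p → V L p} {Φ : V L p → V M p} (h1 : Lin Ψ) (h2 : Lin Φ) :
    Lin (fun v => Φ (Ψ v)) := by
  intro x hx
  obtain ⟨Z, hZ, e1, e2⟩ := h1 x hx
  obtain ⟨W, hW, e3, e4⟩ := h2 Z hZ
  exact ⟨W, hW, by simp only [e1, e3], by simp only [e2, e4]⟩

lemma one_add_div_pow_notMem {x : K} (hx : x ∉ Pw K p) (j : ℕ) : (1 + x) / x ^ j ∉ Pw K p := by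
  intro h
  have hx0 := ne_zero_of_notMem hx
  obtain ⟨θ, hθ⟩ := exists_theta hx
  have h1 := der_of_mem θ h
  rw [der_div _ _ _ (pow_ne_zero _ hx0), der_pow_theta θ hθ, map_add, θ.map_one_eq_zero, hθ] at h1
  have h2 := (div_eq_zero_iff.1 h1).resolve_right (pow_ne_zero _ (pow_ne_zero _ hx0))
  have h3 : x ^ j * (x * (1 - j) - j) = 0 := by linear_combination h2
  have h4 : x * (1 - j) = j := sub_eq_zero.1 ((mul_eq_zero.1 h3).resolve_left (pow_ne_zero _ hx0))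
  by_cases h5 : (1 - j : K) = 0
  · rw [h5, mul_zero] at h4
    rw [← h4] at h5
    simp at h5
  · apply hx
    rw [eq_div_of_mul_eq h5 h4]
    exact div_mem (natCast_mem_Pw j) (sub_mem (one_mem _) (natCast_mem_Pw j))

lemma rep_notMem (Θ : V K p ≃+ V L p) {x : K} (hx : x ∉ Pw K p) {X : L} (hX : X ≠ 0)
    (h : Θ (cl p x) = cl p X) : X ∉ Pw L p := by
  intro h1
  rw [(cl_eq_zero_iff hX).2 h1, map_eq_zero_iff _ Θ.injective,
    cl_eq_zero_iff (ne_zero_of_notMem hx)] at h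
  exact hx h

lemma pair (Θ : V K p ≃+ V L p) (hw : Weak Θ) {x y : K} (hx : x ∉ Pw K p)
    (hy : y ∉ Pw K p) {X P Y Q : L} (hX : X ≠ 0) (hP : P ≠ 0) (hY : Y ≠ 0) (hQ : Q ≠ 0)
    (eX : Θ (cl p x) = cl p X) (eP : Θ (cl p (1 + x)) = cl p P)
    (eY : Θ (cl p y) = cl p Y) (eQ : Θ (cl p (1 + y)) = cl p Q)
    (hind : Y ∉ (Pw L p)⟮X⟯) : ∃ n : ℕ, 0 < n ∧ n < p ∧ Good p n X P ∧ Good p n Y Q := by
  have hx0 := ne_zero_of_notMem hx
  have hy0 := ne_zero_of_notMem hy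
  have hx1 := ne_zero_of_notMem (one_add_notMem hx)
  have hy1 := ne_zero_of_notMem (one_add_notMem hy)
  have hXP := rep_notMem Θ hx hX eX
  obtain ⟨D₂, hD₂, hD₂Y⟩ := exists_der _ Y hind
  have hD₂X : D₂ X = 0 := hD₂ X (mem_adjoin_simple_self _ X)
  obtain ⟨D₁, hD₁⟩ := exists_der_one hXP
  have hxy : x - y ≠ 0 := by
    intro h
    have h1 : x = y := sub_eq_zero.1 h
    subst h1
    rw [eX, eq_comm, cl_eq_iff' hY hX] at eY
    obtain ⟨u, hu, -, rfl⟩ := eY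
    exact hind (mul_mem (IntermediateField.algebraMap_mem _ (⟨u, hu⟩ : Pw L p))
      (mem_adjoin_simple_self _ X))
  obtain ⟨H, hH, eH⟩ := cl_surj (Θ (cl p (x - y)))
  have nd : ∀ {x : K} (_ : x ∉ Pw K p) {X P : L} (_ : X ≠ 0) (_ : P ≠ 0)
      (_ : Θ (cl p x) = cl p X) (_ : Θ (cl p (1 + x)) = cl p P) (j : ℕ), P / X ^ j ∉ Pw L p := by
    intro x hx X P hX hP eX eP j
    have hx0 := ne_zero_of_notMem hx
    have hx1 := ne_zero_of_notMem (one_add_notMem hx)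
    apply rep_notMem Θ (one_add_div_pow_notMem hx j) (div_ne_zero hP (pow_ne_zero _ hX))
    rw [cl_div hx1 (pow_ne_zero _ hx0), cl_div hP (pow_ne_zero _ hX), cl_pow hx0, cl_pow hX,
      map_sub, map_nsmul, eX, eP]
  apply core hX hY hP hQ hH (X • (D₁ - (D₁ Y) • D₂)) (Y • D₂)
  · simp [hD₁, hD₂X]
  · simp [hD₂Y]
  · simp [hD₂X]
  · simp [hD₂Y]
  · apply hw (-x) (neg_ne_zero.2 hx0) (by rwa [sub_neg_eq_add]) X P hX hP
    · rw [cl_neg hx0, eX]
    · rw [sub_neg_eq_add, eP]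
  · apply hw (-y) (neg_ne_zero.2 hy0) (by rwa [sub_neg_eq_add]) Y Q hY hQ
    · rw [cl_neg hy0, eY]
    · rw [sub_neg_eq_add, eQ]
  · have e : 1 - x / y = -(x - y) / y := by field_simp; ring
    apply hw (x / y) (div_ne_zero hx0 hy0) (by rw [e]; exact div_ne_zero (neg_ne_zero.2 hxy) hy0)
      _ _ (div_ne_zero hX hY) (div_ne_zero hH hY)
    · rw [cl_div hx0 hy0, cl_div hX hY, map_sub, eX, eY]
    · rw [e, cl_div (neg_ne_zero.2 hxy) hy0, cl_neg hxy, cl_div hH hY, map_sub, eH, eY]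
  · have e : 1 - (1 + x) / (1 + y) = -(x - y) / (1 + y) := by field_simp; ring
    apply hw ((1 + x) / (1 + y)) (div_ne_zero hx1 hy1)
      (by rw [e]; exact div_ne_zero (neg_ne_zero.2 hxy) hy1)
      _ _ (div_ne_zero hP hQ) (div_ne_zero hH hQ)
    · rw [cl_div hx1 hy1, cl_div hP hQ, map_sub, eP, eQ]
    · rw [e, cl_div (neg_ne_zero.2 hxy) hy1, cl_neg hxy, cl_div hH hQ, map_sub, eH, eQ]
  · exact nd hx hX hP eX eP
  · exact nd hy hY hQ eY eQ

lemma exists_notMem_two (hL : ∀ X : L, ∃ Y : L, Y ∉ (Pw L p)⟮X⟯) (X X' : L) :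
    ∃ Y : L, Y ∉ (Pw L p)⟮X⟯ ∧ Y ∉ (Pw L p)⟮X'⟯ := by
  obtain ⟨Y, hY⟩ := hL X
  obtain ⟨Y', hY'⟩ := hL X'
  by_cases h1 : Y ∈ (Pw L p)⟮X'⟯
  · by_cases h2 : Y' ∈ (Pw L p)⟮X⟯
    · refine ⟨Y + Y', fun h => hY ?_, fun h => hY' ?_⟩
      · simpa using sub_mem h h2
      · simpa using sub_mem h h1
    · exact ⟨Y', h2, hY'⟩
  · exact ⟨Y, hY, h1⟩

theorem exists_lin (Θ : V K p ≃+ V L p) (hw : Weak Θ)
    (hL : ∀ X : L, ∃ Y : L, Y ∉ (Pw L p)⟮X⟯) :
    ∃ n : ℕ, 0 < n ∧ n < p ∧ Lin (fun v => n • Θ v) := by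
  have hp : p.Prime := Fact.out
  -- auxiliary points
  have aux : ∀ Y : L, Y ∉ Pw L p → ∃ (y : K) (Q : L), y ∉ Pw K p ∧ Q ≠ 0 ∧
      Θ (cl p y) = cl p Y ∧ Θ (cl p (1 + y)) = cl p Q := by
    intro Y hY
    obtain ⟨y, hy, ey⟩ := cl_surj (Θ.symm (cl p Y))
    obtain ⟨Q, hQ, eQ⟩ := cl_surj (Θ (cl p (1 + y)))
    exact ⟨y, Q, rep_notMem Θ.symm hY hy ey.symm, hQ, by rw [ey]; simp, eQ.symm⟩
  have hbot : ∀ {X Y : L}, Y ∉ (Pw L p)⟮X⟯ → Y ∉ Pw L p := fun {X Y} h h' =>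
    h (IntermediateField.algebraMap_mem _ (⟨Y, h'⟩ : Pw L p))
  obtain ⟨X₀, hX₀⟩ := hL 0
  have hX₀P := hbot hX₀
  have hX₀0 := ne_zero_of_notMem hX₀P
  obtain ⟨x₀, P₀, hx₀, hP₀, eX₀, eP₀⟩ := aux X₀ hX₀P
  have key : ∀ (x : K) (_ : x ∉ Pw K p) (X P : L) (_ : X ≠ 0) (_ : P ≠ 0)
      (_ : Θ (cl p x) = cl p X) (_ : Θ (cl p (1 + x)) = cl p P),
      ∃ n : ℕ, 0 < n ∧ n < p ∧ Good p n X P ∧ Good p n X₀ P₀ := by
    intro x hx X P hX hP eX eP
    obtain ⟨Y, hY1, hY2⟩ := exists_notMem_two hL X X₀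
    have hYP := hbot hY1
    have hY0 := ne_zero_of_notMem hYP
    obtain ⟨y, Q, hy, hQ, eY, eQ⟩ := aux Y hYP
    obtain ⟨n, hn0, hn, g1, g2⟩ := pair Θ hw hx hy hX hP hY0 hQ eX eP eY eQ hY1
    obtain ⟨n', hn0', hn', g1', g2'⟩ := pair Θ hw hx₀ hy hX₀0 hP₀ hY0 hQ eX₀ eP₀ eY eQ hY2
    have := good_unique hY0 hYP hQ hn0 hn hn0' hn' g2 g2'
    subst this
    exact ⟨n, hn0, hn, g1, g1'⟩
  obtain ⟨n₀, hn₀0, hn₀, g₀, -⟩ := key x₀ hx₀ X₀ P₀ hX₀0 hP₀ eX₀ eP₀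
  refine ⟨n₀, hn₀0, hn₀, fun x hx => ?_⟩
  obtain ⟨X, hX, eX⟩ := cl_surj (Θ (cl p x))
  obtain ⟨P, hP, eP⟩ := cl_surj (Θ (cl p (1 + x)))
  obtain ⟨n, hn0, hn, g1, g2⟩ := key x hx X P hX hP eX.symm eP.symm
  have := good_unique hX₀0 hX₀P hP₀ hn0 hn hn₀0 hn₀ g2 g₀
  subst this
  obtain ⟨l, hl, hl0, hne, h⟩ := g1
  have hXP := rep_notMem Θ hx hX eX.symm
  have hl' : (-l)⁻¹ ∈ Pw L p := inv_mem (neg_mem hl)
  have hl0' : (-l)⁻¹ ≠ 0 := inv_ne_zero (neg_ne_zero.2 hl0)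
  refine ⟨(-l)⁻¹ * X ^ n, fun hmem => ?_, ?_, ?_⟩
  · have h1 : X ^ n / X ^ 0 ∈ Pw L p := by
      have := mul_mem (neg_mem hl) hmem
      rw [← mul_assoc, mul_inv_cancel₀ (neg_ne_zero.2 hl0), one_mul] at this
      simpa using this
    have h2 := natCast_eq_of_pow_div_mem hX hXP h1
    rw [Nat.cast_zero, CharP.cast_eq_zero_iff L p] at h2
    exact Nat.not_dvd_of_pos_of_lt hn0 hn h2
  · simp only
    rw [cl_Pw_mul hl' hl0' (pow_ne_zero _ hX), cl_pow hX, eX]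
  · simp only
    have e : 1 + (-l)⁻¹ * X ^ n = (-l)⁻¹ * (X ^ n - l) := by field_simp; ring
    rw [e, cl_Pw_mul hl' hl0' hne, ← (cl_eq_iff (pow_ne_zero _ hP) hne).2 h, cl_pow hP, eP]

lemma eq_one_of_lin {m : ℕ} {x Z : K} (hx : x ∉ Pw K p) (hZ : Z ∉ Pw K p)
    (e1 : m • cl p x = cl p Z) (e2 : m • cl p (1 + x) = cl p (1 + Z)) : (m : K) = 1 := by
  have hx0 := ne_zero_of_notMem hx
  have hx1 := ne_zero_of_notMem (one_add_notMem hx)
  have hZ0 := ne_zero_of_notMem hZ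
  have hZ1 := ne_zero_of_notMem (one_add_notMem hZ)
  obtain ⟨θ, hθ⟩ := exists_theta hx
  have f1 := congrArg (dl θ) e1
  have f2 := congrArg (dl θ) e2
  rw [map_nsmul, dl_cl θ hx0, dl_cl θ hZ0, hθ, nsmul_eq_mul] at f1
  rw [map_nsmul, dl_cl θ hx1, dl_cl θ hZ1, map_add, map_add, θ.map_one_eq_zero, hθ,
    nsmul_eq_mul] at f2
  field_simp at f1 f2
  have hm : (m : K) ≠ 0 := by
    intro h0
    apply hZ
    rw [← cl_eq_zero_iff hZ0, ← e1]
    have h1 : p ∣ m := (CharP.cast_eq_zero_iff K p m).1 h0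
    obtain ⟨c, rfl⟩ := h1
    rw [mul_comm, mul_nsmul', ← cl_pow hx0, (cl_eq_zero_iff (pow_ne_zero _ hx0)).2 (pow_mem_Pw x),
      nsmul_zero]
  have h3 : (m : K) * (x - Z) = 0 := by
    rw [← f1] at f2
    linear_combination f2
  have h4 : x = Z := sub_eq_zero.1 ((mul_eq_zero.1 h3).resolve_left hm)
  subst h4
  rw [hθ] at f1
  have h5 : ((m : K) - 1) * x = 0 := by linear_combination f1
  exact sub_eq_zero.1 ((mul_eq_zero.1 h5).resolve_right hx0)

lemma eq_of_cl_eq {Z Z' : K} (hZ : Z ∉ Pw K p) (hZ' : Z' ∉ Pw K p)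
    (e1 : cl p Z' = cl p Z) (e2 : cl p (1 + Z') = cl p (1 + Z)) : Z' = Z := by
  have hZ0 := ne_zero_of_notMem hZ
  have hZ1 := ne_zero_of_notMem (one_add_notMem hZ)
  have hZ0' := ne_zero_of_notMem hZ'
  have hZ1' := ne_zero_of_notMem (one_add_notMem hZ')
  obtain ⟨u, hu, hu0, h1⟩ := (cl_eq_iff' hZ0' hZ0).1 e1
  obtain ⟨v, hv, hv0, h2⟩ := (cl_eq_iff' hZ1' hZ1).1 e2
  by_cases huv : u - v = 0
  · have h3 : v = 1 := by
      rw [h1] at h2
      linear_combination -h2 + Z * huv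
    rw [h3] at h2
    linear_combination h2
  · exfalso
    apply hZ
    have h3 : Z * (u - v) = v - 1 := by rw [h1] at h2; linear_combination h2
    rw [eq_div_of_mul_eq huv h3]
    exact div_mem (sub_mem hv (one_mem _)) (sub_mem hu hv)

end Crest.Agent.H1Milnor
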