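import Crest.Agent.H1Milnor.Cls

/-!
From a multiplicative collineation to a field isomorphism.
-/

set_option autoImplicit false

namespace Crest.Agent.H1Milnor

open Polynomial IntermediateField Crest.NumberTheoryR.MilnorK


variable {p : ℕ} [Fact p.Prime]
variable {K L : Type*} [Field K] [Field L] [CharP K p] [CharP L p]

variable (p) in
/-- `1, s, t` are linearly independent over the `p`-th powers. -/
def Ind (s t : K) : Prop :=
  ∀ a ∈ Pw K p, ∀ b ∈ Pw K p, ∀ c ∈ Pw K p, a + b * s + c * t = 0 → a = 0 ∧ b = 0 ∧ c = 0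

variable (p) in
/-- `w` is not in the span of `1, s, t` over the `p`-th powers. -/
def Out (s t w : K) : Prop :=
  ∀ a ∈ Pw K p, ∀ b ∈ Pw K p, ∀ c ∈ Pw K p, w ≠ a + b * s + c * t

lemma Ind.symm {s t : K} (h : Ind p s t) : Ind p t s := by
  intro a ha b hb c hc e
  obtain ⟨h1, h2, h3⟩ := h a ha c hc b hb (by linear_combination e)
  exact ⟨h1, h3, h2⟩

lemma Ind.left {s t : K} (h : Ind p s t) : s ∉ Pw K p := by
  intro hs
  have := (h s hs (-1) (neg_mem (one_mem _)) 0 (zero_mem _) (by ring)).2.1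
  simp at this

lemma Ind.right {s t : K} (h : Ind p s t) : t ∉ Pw K p := h.symm.left

lemma ind_of {s t : K} (hs : s ∉ Pw K p) (ht : ∀ a ∈ Pw K p, ∀ b ∈ Pw K p, t ≠ a + b * s) :
    Ind p s t := by
  intro a ha b hb c hc e
  have hc0 : c = 0 := by
    by_contra hc0
    apply ht (-a / c) (div_mem (neg_mem ha) hc) (-b / c) (div_mem (neg_mem hb) hc)
    field_simp
    linear_combination e
  subst hc0
  have hb0 : b = 0 := by
    by_contra hb0
    apply hs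
    have : s = -a / b := by field_simp; linear_combination e
    rw [this]
    exact div_mem (neg_mem ha) hb
  subst hb0
  exact ⟨by simpa using e, rfl, rfl⟩

lemma Ind.add_notMem {s t : K} (h : Ind p s t) : s + t ∉ Pw K p := by
  intro hs
  have := (h (-(s + t)) (neg_mem hs) 1 (one_mem _) 1 (one_mem _) (by ring)).2.1
  simp at this

lemma Ind.div_notMem {s t : K} (h : Ind p s t) : s / t ∉ Pw K p := by
  intro hs
  have ht := ne_zero_of_notMem h.right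
  have := (h 0 (zero_mem _) (-1) (neg_mem (one_mem _)) (s / t) hs (by field_simp; ring)).2.1
  simp at this

lemma Ind.one_add_div_notMem {s t : K} (h : Ind p s t) : (1 + s) / t ∉ Pw K p := by
  intro hs
  have ht := ne_zero_of_notMem h.right
  have := (h (-1) (neg_mem (one_mem _)) (-1) (neg_mem (one_mem _)) ((1 + s) / t) hs
    (by field_simp; ring)).2.1
  simp at this

lemma exists_out (hK : ∀ x : K, ∃ y : K, y ∉ (Pw K p)⟮x⟯) (s t : K) : ∃ w, Out p s t w := by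
  classical
  have hp : p.Prime := Fact.out
  by_contra hcon
  have hspan : ∀ w : K, w ∈ Submodule.span (Pw K p) ({1, s, t} : Finset K) := by
    intro w
    by_contra hw
    apply hcon
    refine ⟨w, fun a ha b hb c hc e => hw ?_⟩
    rw [e]
    have h1 : (1 : K) ∈ Submodule.span (Pw K p) (({1, s, t} : Finset K) : Set K) :=
      Submodule.subset_span (by simp)
    have h2 : s ∈ Submodule.span (Pw K p) (({1, s, t} : Finset K) : Set K) :=
      Submodule.subset_span (by simp)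
    have h3 : t ∈ Submodule.span (Pw K p) (({1, s, t} : Finset K) : Set K) :=
      Submodule.subset_span (by simp)
    refine add_mem (add_mem ?_ ?_) ?_
    · have h4 : a * 1 ∈ _ := Submodule.smul_mem _ (⟨a, ha⟩ : Pw K p) h1
      rwa [mul_one] at h4
    · exact Submodule.smul_mem _ (⟨b, hb⟩ : Pw K p) h2
    · exact Submodule.smul_mem _ (⟨c, hc⟩ : Pw K p) h3
  have htop : Submodule.span (Pw K p) (({1, s, t} : Finset K) : Set K) = ⊤ :=
    eq_top_iff.2 fun w _ => hspan w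
  have hfin : Module.Finite (Pw K p) K := ⟨⟨_, htop⟩⟩
  have hle : Module.finrank (Pw K p) K ≤ 3 := by
    have h1 := finrank_span_finset_le_card (R := Pw K p) ({1, s, t} : Finset K)
    rw [Set.finrank, htop, finrank_top] at h1
    exact h1.trans Finset.card_le_three
  obtain ⟨x, hx⟩ := hK 0
  obtain ⟨y, hy⟩ := hK x
  have hpow : ∀ x : K, x ^ p ∈ (algebraMap (Pw K p) K).range := fun x =>
    ⟨⟨x ^ p, pow_mem_Pw x⟩, rfl⟩
  have hx' : x ∉ (algebraMap (Pw K p) K).range := fun ⟨z, hz⟩ =>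
    hx (hz ▸ IntermediateField.algebraMap_mem _ z)
  have h1 := finrank_adjoin hpow hx'
  have h2 := Module.finrank_mul_finrank (Pw K p) (Pw K p)⟮x⟯ K
  have h3 : Module.finrank (Pw K p)⟮x⟯ K ≠ 1 := by
    intro h
    rw [IntermediateField.finrank_eq_one_iff_eq_top] at h
    exact hy (h ▸ IntermediateField.mem_top)
  have h4 : 0 < Module.finrank (Pw K p)⟮x⟯ K := Module.finrank_pos
  have h5 := hp.two_le
  rw [h1] at h2
  have h6 : 2 ≤ Module.finrank (Pw K p)⟮x⟯ K := by omega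
  nlinarith

section

variable (Ψ : V K p ≃+ V L p) (h1 : Lin Ψ)

open Classical in
/-- The candidate field map, off the `p`-th powers. -/
noncomputable def a0 (x : K) : L := if hx : x ∈ Pw K p then 0 else (h1 x hx).choose

lemma a0_spec {x : K} (hx : x ∉ Pw K p) : a0 Ψ h1 x ∉ Pw L p ∧ Ψ (cl p x) = cl p (a0 Ψ h1 x) ∧
    Ψ (cl p (1 + x)) = cl p (1 + a0 Ψ h1 x) := by
  rw [a0, dif_neg hx]
  exact (h1 x hx).choose_spec

lemma a0_eq {x : K} (hx : x ∉ Pw K p) {Z : L} (hZ : Z ∉ Pw L p) (e1 : Ψ (cl p x) = cl p Z)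
    (e2 : Ψ (cl p (1 + x)) = cl p (1 + Z)) : a0 Ψ h1 x = Z := by
  obtain ⟨g1, g2, g3⟩ := a0_spec Ψ h1 hx
  exact eq_of_cl_eq hZ g1 (g2.symm.trans e1) (g3.symm.trans e2)

include h1 in
lemma coll {s t : K} (hs : s ≠ 0) (ht : t ≠ 0) (hst : s / t ∉ Pw K p) {S T : L} (hS : S ≠ 0)
    (hT : T ≠ 0) (eS : Ψ (cl p s) = cl p S) (eT : Ψ (cl p t) = cl p T) :
    ∃ u ∈ Pw L p, u ≠ 0 ∧ u * S + T ≠ 0 ∧ Ψ (cl p (s + t)) = cl p (u * S + T) := by
  obtain ⟨Z, hZ, e1, e2⟩ := h1 _ hst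
  have hZ0 := ne_zero_of_notMem hZ
  have hZ1 := ne_zero_of_notMem (one_add_notMem hZ)
  have h11 := ne_zero_of_notMem (one_add_notMem hst)
  rw [cl_div hs ht, map_sub, eS, eT, ← cl_div hS hT, eq_comm,
    cl_eq_iff' hZ0 (div_ne_zero hS hT)] at e1
  obtain ⟨u, hu, hu0, rfl⟩ := e1
  have e : u * S + T = T * (1 + u * (S / T)) := by field_simp; ring
  refine ⟨u, hu, hu0, e ▸ mul_ne_zero hT hZ1, ?_⟩
  have e' : s + t = t * (1 + s / t) := by field_simp; ring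
  rw [e, e', cl_mul ht h11, cl_mul hT hZ1, map_add, eT, e2]

lemma ind_transfer (h2 : Lin Ψ.symm) {s t : K} (h : Ind p s t) {S T : L} (hS : S ≠ 0)
    (hT : T ≠ 0) (eS : Ψ (cl p s) = cl p S) (eT : Ψ (cl p t) = cl p T) : Ind p S T := by
  have hs0 := ne_zero_of_notMem h.left
  have ht0 := ne_zero_of_notMem h.right
  have hSP := rep_notMem Ψ h.left hS eS
  apply ind_of hSP
  intro a ha b hb e
  by_cases hb0 : b = 0
  · apply rep_notMem Ψ h.right hT eT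
    rw [e, hb0]; simpa using ha
  by_cases ha0 : a = 0
  · rw [e, ha0, zero_add, cl_Pw_mul hb hb0 hS, ← eS] at eT
    have := Ψ.injective eT
    rw [cl_eq_iff ht0 hs0] at this
    exact h.symm.div_notMem this
  have hba : b / a ∈ Pw L p := div_mem hb ha
  have hba0 : b / a ≠ 0 := div_ne_zero hb0 ha0
  have hx : b / a * S ∉ Pw L p := by
    intro hx
    apply hSP
    have := mul_mem (inv_mem hba) hx
    rwa [← mul_assoc, inv_mul_cancel₀ hba0, one_mul] at this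
  obtain ⟨z, hz, e1, e2⟩ := h2 _ hx
  have hz0 := ne_zero_of_notMem hz
  have hz1 := ne_zero_of_notMem (one_add_notMem hz)
  rw [cl_Pw_mul hba hba0 hS, ← eS, AddEquiv.symm_apply_apply, eq_comm, cl_eq_iff' hz0 hs0] at e1
  obtain ⟨u, hu, hu0, rfl⟩ := e1
  have e3 : T = a * (1 + b / a * S) := by rw [e]; field_simp
  rw [← cl_Pw_mul ha ha0 (ne_zero_of_notMem (one_add_notMem hx)), ← e3, ← eT,
    AddEquiv.symm_apply_apply, cl_eq_iff' ht0 hz1] at e2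
  obtain ⟨v, hv, hv0, e4⟩ := e2
  have := (h v hv (v * u) (mul_mem hv hu) (-1) (neg_mem (one_mem _)) (by rw [e4]; ring)).1
  exact hv0 this

lemma a0_add_ind (h2 : Lin Ψ.symm) {s t : K} (h : Ind p s t) :
    a0 Ψ h1 (s + t) = a0 Ψ h1 s + a0 Ψ h1 t := by
  obtain ⟨hS, eS, eS1⟩ := a0_spec Ψ h1 h.left
  obtain ⟨hT, eT, eT1⟩ := a0_spec Ψ h1 h.right
  obtain ⟨hZ, eZ, eZ1⟩ := a0_spec Ψ h1 h.add_notMem
  set S := a0 Ψ h1 s
  set T := a0 Ψ h1 t
  set Z := a0 Ψ h1 (s + t)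
  have hs0 := ne_zero_of_notMem h.left
  have ht0 := ne_zero_of_notMem h.right
  have hs1 := ne_zero_of_notMem (one_add_notMem h.left)
  have ht1 := ne_zero_of_notMem (one_add_notMem h.right)
  have hS0 := ne_zero_of_notMem hS
  have hT0 := ne_zero_of_notMem hT
  have hZ0 := ne_zero_of_notMem hZ
  have hS1 := ne_zero_of_notMem (one_add_notMem hS)
  have hT1 := ne_zero_of_notMem (one_add_notMem hT)
  have hZ1 := ne_zero_of_notMem (one_add_notMem hZ)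
  have hI := ind_transfer Ψ h2 h hS0 hT0 eS eT
  obtain ⟨u, hu, hu0, hn1, e1⟩ := coll Ψ h1 hs1 ht0 h.one_add_div_notMem hS1 hT0 eS1 eT
  obtain ⟨v, hv, hv0, hn2, e2⟩ := coll Ψ h1 ht1 hs0 h.symm.one_add_div_notMem hT1 hS0 eT1 eS
  obtain ⟨u', hu', hu0', hn3, e3⟩ := coll Ψ h1 hs0 ht0 h.div_notMem hS0 hT0 eS eT
  have e4 : 1 + t + s = 1 + s + t := by ring
  rw [e4, e1, cl_eq_iff' hn1 hn2] at e2
  obtain ⟨w, hw, hw0, e5⟩ := e2
  obtain ⟨c1, -, c3⟩ := hI (u - w * v) (sub_mem hu (mul_mem hw hv)) (u - w) (sub_mem hu hw)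
    (1 - w * v) (sub_mem (one_mem _) (mul_mem hw hv)) (by linear_combination e5)
  have hu1 : u = 1 := by linear_combination c1 - c3
  rw [hu1, one_mul] at e1 hn1
  rw [eZ, cl_eq_iff' hZ0 hn3] at e3
  obtain ⟨w', hw', hw0', e6⟩ := e3
  rw [← add_assoc, e1, eq_comm, cl_eq_iff' hZ1 hn1] at eZ1
  obtain ⟨w'', hw'', hw0'', e7⟩ := eZ1
  obtain ⟨d1, d2, d3⟩ := hI (1 - w'') (sub_mem (one_mem _) hw'') (w' * u' - w'')
    (sub_mem (mul_mem hw' hu') hw'') (w' - w'') (sub_mem hw' hw'')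
    (by linear_combination e7 - e6)
  linear_combination e7 - (1 + S + T) * d1

lemma a0_add (h2 : Lin Ψ.symm) (hK : ∀ s t : K, ∃ w, Out p s t w) {s t : K} (hs : s ∉ Pw K p)
    (ht : t ∉ Pw K p) (hst : s + t ∉ Pw K p) : a0 Ψ h1 (s + t) = a0 Ψ h1 s + a0 Ψ h1 t := by
  obtain ⟨w, hw⟩ := hK s t
  have i1 : Ind p (s + t) w := ind_of hst fun a ha b hb e =>
    hw a ha b hb b hb (by rw [e]; ring)
  have i2 : Ind p s (t + w) := ind_of hs fun a ha b hb e =>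
    hw a ha b hb (-1) (neg_mem (one_mem _)) (by linear_combination e)
  have i3 : Ind p t w := ind_of ht fun a ha b hb e =>
    hw a ha 0 (zero_mem _) b hb (by rw [e]; ring)
  have e1 := a0_add_ind Ψ h1 h2 i1
  have e2 := a0_add_ind Ψ h1 h2 i2
  have e3 := a0_add_ind Ψ h1 h2 i3
  rw [← add_assoc] at e2
  linear_combination e2 - e1 + e3

variable (p) in
/-- `w` is not in the span of `1, x`. -/
def Out1 (x w : K) : Prop := ∀ a ∈ Pw K p, ∀ b ∈ Pw K p, w ≠ a + b * x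

omit [CharP L p] in
lemma Out1.notMem {x w : K} (h : Out1 p x w) : w ∉ Pw K p := fun hw =>
  h w hw 0 (zero_mem _) (by ring)

omit [CharP L p] in
lemma Out1.add_notMem {x w : K} (h : Out1 p x w) : x + w ∉ Pw K p := fun hw =>
  h (x + w) hw (-1) (neg_mem (one_mem _)) (by ring)

lemma diff_eq_aux (h2 : Lin Ψ.symm) (hK : ∀ s t : K, ∃ w, Out p s t w) {x w w' : K}
    (hw : Out1 p x w) (hw' : Out1 p x w') (hn : x + w + w' ∉ Pw K p) :
    a0 Ψ h1 (x + w) - a0 Ψ h1 w = a0 Ψ h1 (x + w') - a0 Ψ h1 w' := by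
  have e1 := a0_add Ψ h1 h2 hK hw.add_notMem hw'.notMem hn
  have e2 := a0_add Ψ h1 h2 hK hw'.add_notMem hw.notMem (by rwa [add_right_comm])
  rw [add_right_comm] at e2
  linear_combination e2 - e1

lemma diff_eq (h2 : Lin Ψ.symm) (hK : ∀ s t : K, ∃ w, Out p s t w) {x w w' : K}
    (hw : Out1 p x w) (hw' : Out1 p x w') :
    a0 Ψ h1 (x + w) - a0 Ψ h1 w = a0 Ψ h1 (x + w') - a0 Ψ h1 w' := by
  by_cases hn : x + w + w' ∈ Pw K p
  · obtain ⟨w'', h⟩ := hK x w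
    have h'' : Out1 p x w'' := fun a ha b hb e => h a ha b hb 0 (zero_mem _) (by rw [e]; ring)
    have n1 : x + w + w'' ∉ Pw K p := fun hm =>
      h _ hm (-1) (neg_mem (one_mem _)) (-1) (neg_mem (one_mem _)) (by ring)
    have n2 : x + w' + w'' ∉ Pw K p := fun hm =>
      h _ (sub_mem hm hn) 0 (zero_mem _) 1 (one_mem _) (by ring)
    rw [diff_eq_aux Ψ h1 h2 hK hw h'' n1, diff_eq_aux Ψ h1 h2 hK hw' h'' n2]
  · exact diff_eq_aux Ψ h1 h2 hK hw hw' hn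

/-- The candidate field map. -/
noncomputable def al (hK : ∀ s t : K, ∃ w, Out p s t w) (x : K) : L :=
  a0 Ψ h1 (x + (hK x x).choose) - a0 Ψ h1 (hK x x).choose

lemma al_eq (h2 : Lin Ψ.symm) (hK : ∀ s t : K, ∃ w, Out p s t w) {x w : K} (hw : Out1 p x w) :
    al Ψ h1 hK x = a0 Ψ h1 (x + w) - a0 Ψ h1 w := by
  apply diff_eq Ψ h1 h2 hK _ hw
  intro a ha b hb e
  exact (hK x x).choose_spec a ha b hb 0 (zero_mem _) (by rw [e]; ring)

lemma al_add (h2 : Lin Ψ.symm) (hK : ∀ s t : K, ∃ w, Out p s t w) (x y : K) :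
    al Ψ h1 hK (x + y) = al Ψ h1 hK x + al Ψ h1 hK y := by
  obtain ⟨w, hw⟩ := hK x y
  have o1 : Out1 p (x + y) w := fun a ha b hb e => hw a ha b hb b hb (by rw [e]; ring)
  have o2 : Out1 p x (y + w) := fun a ha b hb e =>
    hw a ha b hb (-1) (neg_mem (one_mem _)) (by linear_combination e)
  have o3 : Out1 p y w := fun a ha b hb e => hw a ha 0 (zero_mem _) b hb (by rw [e]; ring)
  rw [al_eq Ψ h1 h2 hK o1, al_eq Ψ h1 h2 hK o2, al_eq Ψ h1 h2 hK o3, add_assoc]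
  ring

lemma al_eq_a0 (h2 : Lin Ψ.symm) (hK : ∀ s t : K, ∃ w, Out p s t w) {x : K} (hx : x ∉ Pw K p) :
    al Ψ h1 hK x = a0 Ψ h1 x := by
  obtain ⟨w, hw⟩ := hK x x
  have o1 : Out1 p x w := fun a ha b hb e => hw a ha b hb 0 (zero_mem _) (by rw [e]; ring)
  rw [al_eq Ψ h1 h2 hK o1, a0_add Ψ h1 h2 hK hx o1.notMem o1.add_notMem]
  ring

lemma al_Pw_aux (h2 : Lin Ψ.symm) (hK : ∀ s t : K, ∃ w, Out p s t w) {a : K} (ha : a ∈ Pw K p)
    (ha0 : a ≠ 0) {t : K} (ht : t ∉ Pw K p) :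
    ∃ v ∈ Pw L p, ∃ u ∈ Pw L p, v ≠ 0 ∧ (a = 1 → u = 1) ∧
      al Ψ h1 hK a = v + (v * u - 1) * a0 Ψ h1 t := by
  have ht0 := ne_zero_of_notMem ht
  have o1 : Out1 p a t := fun b hb c hc e => ht (e ▸ add_mem hb (mul_mem hc ha))
  have hta : a⁻¹ * t ∉ Pw K p := by
    intro h
    have := mul_mem ha h
    rw [← mul_assoc, mul_inv_cancel₀ ha0, one_mul] at this
    exact ht this
  obtain ⟨hT, eT, -⟩ := a0_spec Ψ h1 ht
  obtain ⟨hZ, eZ, eZ1⟩ := a0_spec Ψ h1 hta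
  obtain ⟨hW, eW, -⟩ := a0_spec Ψ h1 o1.add_notMem
  have hT0 := ne_zero_of_notMem hT
  rw [cl_Pw_mul (inv_mem ha) (inv_ne_zero ha0) ht0, eT, eq_comm,
    cl_eq_iff' (ne_zero_of_notMem hZ) hT0] at eZ
  obtain ⟨u, hu, hu0, e1⟩ := eZ
  have e2 : a + t = a * (1 + a⁻¹ * t) := by field_simp
  rw [e2, cl_Pw_mul ha ha0 (ne_zero_of_notMem (one_add_notMem hta)), eZ1, ← e2, eq_comm,
    cl_eq_iff' (ne_zero_of_notMem hW) (ne_zero_of_notMem (one_add_notMem hZ))] at eW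
  obtain ⟨v, hv, hv0, e3⟩ := eW
  refine ⟨v, hv, u, hu, hv0, fun h => ?_, ?_⟩
  · rw [h, inv_one, one_mul] at e1
    exact (mul_right_cancel₀ hT0 (by rw [← e1, one_mul])).symm
  · rw [al_eq Ψ h1 h2 hK o1, e3, e1]; ring

lemma al_Pw (h2 : Lin Ψ.symm) (hK : ∀ s t : K, ∃ w, Out p s t w) {a : K} (ha : a ∈ Pw K p)
    (ha0 : a ≠ 0) : al Ψ h1 hK a ∈ Pw L p ∧ al Ψ h1 hK a ≠ 0 ∧ (a = 1 → al Ψ h1 hK a = 1) := by
  obtain ⟨t, ht⟩ := hK 0 0
  have ht' : t ∉ Pw K p := fun h => ht t h 0 (zero_mem _) 0 (zero_mem _) (by ring)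
  obtain ⟨s, hs⟩ := hK t t
  have hI : Ind p t s := ind_of ht' fun a ha b hb e =>
    hs a ha b hb 0 (zero_mem _) (by rw [e]; ring)
  obtain ⟨hT, eT, -⟩ := a0_spec Ψ h1 hI.left
  obtain ⟨hS, eS, -⟩ := a0_spec Ψ h1 hI.right
  have hI' := ind_transfer Ψ h2 hI (ne_zero_of_notMem hT) (ne_zero_of_notMem hS) eT eS
  obtain ⟨v, hv, u, hu, hv0, hu1, e1⟩ := al_Pw_aux Ψ h1 h2 hK ha ha0 hI.left
  obtain ⟨v', hv', u', hu', -, -, e2⟩ := al_Pw_aux Ψ h1 h2 hK ha ha0 hI.right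
  obtain ⟨-, c2, -⟩ := hI' (v - v') (sub_mem hv hv') (v * u - 1)
    (sub_mem (mul_mem hv hu) (one_mem _)) (-(v' * u' - 1))
    (neg_mem (sub_mem (mul_mem hv' hu') (one_mem _))) (by linear_combination e2 - e1)
  rw [c2, zero_mul, add_zero] at e1
  rw [e1]
  refine ⟨hv, hv0, fun h => ?_⟩
  rw [hu1 h] at c2
  linear_combination c2

lemma al_cl (h2 : Lin Ψ.symm) (hK : ∀ s t : K, ∃ w, Out p s t w) {x : K} (hx : x ≠ 0) :
    al Ψ h1 hK x ≠ 0 ∧ Ψ (cl p x) = cl p (al Ψ h1 hK x) := by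
  by_cases h : x ∈ Pw K p
  · obtain ⟨g1, g2, -⟩ := al_Pw Ψ h1 h2 hK h hx
    refine ⟨g2, ?_⟩
    rw [(cl_eq_zero_iff hx).2 h, (cl_eq_zero_iff g2).2 g1, map_zero]
  · rw [al_eq_a0 Ψ h1 h2 hK h]
    obtain ⟨g1, g2, -⟩ := a0_spec Ψ h1 h
    exact ⟨ne_zero_of_notMem g1, g2⟩

lemma al_zero (h2 : Lin Ψ.symm) (hK : ∀ s t : K, ∃ w, Out p s t w) : al Ψ h1 hK 0 = 0 := by
  have := al_add Ψ h1 h2 hK 0 0
  rw [add_zero] at this
  exact left_eq_add.1 this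

lemma al_one (h2 : Lin Ψ.symm) (hK : ∀ s t : K, ∃ w, Out p s t w) : al Ψ h1 hK 1 = 1 :=
  (al_Pw Ψ h1 h2 hK (one_mem _) one_ne_zero).2.2 rfl

lemma al_mul_aux (h2 : Lin Ψ.symm) (hK : ∀ s t : K, ∃ w, Out p s t w) {x y : K} (hx : x ≠ 0)
    (hy : y ≠ 0) : ∃ μ ∈ Pw L p, al Ψ h1 hK (x * y) = μ * (al Ψ h1 hK x * al Ψ h1 hK y) := by
  obtain ⟨g1, e1⟩ := al_cl Ψ h1 h2 hK hx
  obtain ⟨g2, e2⟩ := al_cl Ψ h1 h2 hK hy
  obtain ⟨g3, e3⟩ := al_cl Ψ h1 h2 hK (mul_ne_zero hx hy)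
  rw [cl_mul hx hy, map_add, e1, e2, ← cl_mul g1 g2, eq_comm,
    cl_eq_iff' g3 (mul_ne_zero g1 g2)] at e3
  obtain ⟨μ, hμ, -, e⟩ := e3
  exact ⟨μ, hμ, e⟩

lemma al_mul_of_notMem (h2 : Lin Ψ.symm) (hK : ∀ s t : K, ∃ w, Out p s t w) (x : K) {y : K}
    (hy : y ∉ Pw K p) : al Ψ h1 hK (x * y) = al Ψ h1 hK x * al Ψ h1 hK y := by
  by_cases hx : x = 0
  · rw [hx, zero_mul, al_zero Ψ h1 h2 hK, zero_mul]
  obtain ⟨μ, hμ, e1⟩ := al_mul_aux Ψ h1 h2 hK hx (ne_zero_of_notMem hy)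
  obtain ⟨μ', hμ', e2⟩ := al_mul_aux Ψ h1 h2 hK hx (ne_zero_of_notMem (one_add_notMem hy))
  rw [mul_add, mul_one, al_add Ψ h1 h2 hK, al_add Ψ h1 h2 hK, al_one Ψ h1 h2 hK, e1] at e2
  have hX := (al_cl Ψ h1 h2 hK hx).1
  have hY : al Ψ h1 hK y ∉ Pw L p := by
    rw [al_eq_a0 Ψ h1 h2 hK hy]; exact (a0_spec Ψ h1 hy).1
  have e3 : al Ψ h1 hK y * (μ - μ') = μ' - 1 := by
    apply mul_left_cancel₀ hX
    linear_combination e2
  by_cases h : μ - μ' = 0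
  · rw [h, mul_zero] at e3
    have : μ = 1 := by linear_combination h - e3
    rw [e1, this, one_mul]
  · exfalso
    apply hY
    rw [eq_div_of_mul_eq h e3]
    exact div_mem (sub_mem hμ' (one_mem _)) (sub_mem hμ hμ')

lemma al_mul (h2 : Lin Ψ.symm) (hK : ∀ s t : K, ∃ w, Out p s t w) (x y : K) :
    al Ψ h1 hK (x * y) = al Ψ h1 hK x * al Ψ h1 hK y := by
  by_cases hy : y ∈ Pw K p
  · obtain ⟨t, ht⟩ := hK 0 0
    have ht' : t ∉ Pw K p := fun h => ht t h 0 (zero_mem _) 0 (zero_mem _) (by ring)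
    have hyt : y + t ∉ Pw K p := fun h => ht' (by simpa using sub_mem h hy)
    have e1 := al_mul_of_notMem Ψ h1 h2 hK x ht'
    have e2 := al_mul_of_notMem Ψ h1 h2 hK x hyt
    rw [mul_add, al_add Ψ h1 h2 hK, al_add Ψ h1 h2 hK] at e2
    linear_combination e2 - e1
  · exact al_mul_of_notMem Ψ h1 h2 hK x hy

lemma al_surj (h2 : Lin Ψ.symm) (hK : ∀ s t : K, ∃ w, Out p s t w) :
    Function.Surjective (al Ψ h1 hK) := by
  have key : ∀ Z : L, Z ∉ Pw L p → ∃ z, al Ψ h1 hK z = Z := by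
    intro Z hZ
    obtain ⟨z, hz, e1, e2⟩ := h2 Z hZ
    refine ⟨z, ?_⟩
    rw [al_eq_a0 Ψ h1 h2 hK hz]
    apply a0_eq Ψ h1 hz hZ
    · rw [← e1]; simp
    · rw [← e2]; simp
  intro Z
  by_cases hZ : Z ∈ Pw L p
  · obtain ⟨t, ht⟩ := hK 0 0
    have ht' : t ∉ Pw K p := fun h => ht t h 0 (zero_mem _) 0 (zero_mem _) (by ring)
    have hT := (a0_spec Ψ h1 ht').1
    rw [← al_eq_a0 Ψ h1 h2 hK ht'] at hT
    obtain ⟨z, hz⟩ := key (Z + al Ψ h1 hK t) (fun h => hT (by simpa using sub_mem h hZ))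
    refine ⟨z - t, ?_⟩
    have := al_add Ψ h1 h2 hK (z - t) t
    rw [sub_add_cancel, hz] at this
    linear_combination -this
  · exact key Z hZ

end

theorem exists_ringEquiv (Ψ : V K p ≃+ V L p) (h1 : Lin Ψ) (h2 : Lin Ψ.symm)
    (hK : ∀ s t : K, ∃ w, Out p s t w) :
    ∃ α : K ≃+* L, ∀ x : K, x ≠ 0 → Ψ (cl p x) = cl p (α x) := by
  let f : K →+* L :=
    { toFun := al Ψ h1 hK
      map_one' := al_one Ψ h1 h2 hK
      map_mul' := al_mul Ψ h1 h2 hK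
      map_zero' := al_zero Ψ h1 h2 hK
      map_add' := al_add Ψ h1 h2 hK }
  exact ⟨RingEquiv.ofBijective f ⟨f.injective, al_surj Ψ h1 h2 hK⟩,
    fun x hx => (al_cl Ψ h1 h2 hK hx).2⟩

end Crest.Agent.H1Milnor
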