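import Crest.Agent.H1Milnor.Deriv

/-!
The core two-variable computation.
-/

set_option autoImplicit false

namespace Crest.Agent.H1Milnor

open Polynomial IntermediateField

variable {L : Type*} [Field L] (p : ℕ) [Fact p.Prime] [CharP L p]

/-- `p`-dependence of two elements, in terms of derivations. -/
def Dep (X Y : L) : Prop := ∀ D D' : Der L p, D X * D' Y = D' X * D Y

/-- `P ^ n` is, up to `p`-th powers, `X ^ n - l` with `l` a non-zero `p`-th power. -/
def Good (n : ℕ) (X P : L) : Prop :=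
  ∃ l ∈ Pw L p, l ≠ 0 ∧ X ^ n - l ≠ 0 ∧ P ^ n / (X ^ n - l) ∈ Pw L p

variable {p}

lemma Dep.kill {X P : L} (h : Dep p X P) (θ : Der L p) (hθ : θ X ≠ 0) (D : Der L p)
    (hD : D X = 0) : D P = 0 := by
  have := h D θ
  rw [hD, zero_mul] at this
  exact (mul_eq_zero.1 this.symm).resolve_left hθ

lemma kill_theta {X w : L} (θ : Der L p) (hθ : θ X = X) (h : ∀ D : Der L p, D X = 0 → D w = 0)
    (D : Der L p) (hD : D X = 0) : D (θ w) = 0 := by
  have h1 := h ⁅D, θ⁆ (by rw [Derivation.commutator_apply, hθ, hD, map_zero, sub_zero])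
  rw [Derivation.commutator_apply, h D hD, map_zero, sub_zero] at h1
  exact h1

lemma der_div (D : Der L p) (a b : L) (hb : b ≠ 0) :
    D (a / b) = (D a * b - a * D b) / b ^ 2 := by
  rw [Derivation.leibniz_div]
  simp only [smul_eq_mul]
  field_simp

lemma der_mul (D : Der L p) (a b : L) : D (a * b) = a * D b + b * D a := by
  rw [Derivation.leibniz]; simp only [smul_eq_mul]

lemma der_pow_theta {X : L} (θ : Der L p) (hθ : θ X = X) (j : ℕ) : θ (X ^ j) = j * X ^ j := by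
  induction j with
  | zero => simp
  | succ j ih => rw [pow_succ, der_mul, ih, hθ]; push_cast; ring

lemma der_pow_zero {X : L} (D : Der L p) (hD : D X = 0) (j : ℕ) : D (X ^ j) = 0 := by
  rw [Derivation.leibniz_pow, hD]; simp

lemma one_var {X P s : L} (hX : X ≠ 0) (hXP : X ∉ Pw L p) (hP : P ≠ 0) (θ : Der L p)
    (hθ : θ X = X) (hK : ∀ D : Der L p, D X = 0 → D P = 0)
    (hnd : ∀ j : ℕ, P / X ^ j ∉ Pw L p) (hs : s * θ P = P) (i : ℕ) (hi : i < p)
    (he : θ (1 - s) = i * (1 - s)) (h1s : 1 - s ≠ 0) : 0 < i ∧ Good p (p - i) X P := by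
  have hp : p.Prime := Fact.out
  have hθP : θ P ≠ 0 := by
    intro h0; rw [h0, mul_zero] at hs; exact hP hs.symm
  have hs0 : s ≠ 0 := by
    intro h0; rw [h0, zero_mul] at hs; exact hP hs.symm
  have hKs : ∀ D : Der L p, D X = 0 → D s = 0 := by
    intro D hD
    have h1 := congrArg D hs
    rw [der_mul, kill_theta θ hθ hK D hD, hK D hD, mul_zero, zero_add] at h1
    exact (mul_eq_zero.1 h1).resolve_left hθP
  have hK1s : ∀ D : Der L p, D X = 0 → D (1 - s) = 0 := by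
    intro D hD
    rw [map_sub, hKs D hD, D.map_one_eq_zero, sub_zero]
  have hl : (1 - s) / X ^ i ∈ Pw L p := by
    apply mem_Pw_of_theta hX θ hθ
    · intro D hD
      rw [der_div _ _ _ (pow_ne_zero _ hX), hK1s D hD, der_pow_zero D hD]; simp
    · rw [der_div _ _ _ (pow_ne_zero _ hX), he, der_pow_theta θ hθ]
      ring
  have hθP' : θ P = s⁻¹ * P := by
    field_simp
    linear_combination hs
  have hi0 : 0 < i := by
    rcases Nat.eq_zero_or_pos i with h0 | h0
    · exfalso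
      subst h0
      have hsP : s ∈ Pw L p := by
        have h2 : s = 1 - (1 - s) / X ^ 0 := by simp
        rw [h2]
        exact sub_mem (one_mem _) hl
      obtain ⟨j, -, hj⟩ := eigen hXP θ hθ hK hP (inv_mem hsP) hθP'
      apply hnd j
      apply mem_Pw_of_theta hX θ hθ
      · intro D hD
        rw [der_div _ _ _ (pow_ne_zero _ hX), hK D hD, der_pow_zero D hD]; simp
      · rw [der_div _ _ _ (pow_ne_zero _ hX), hθP', hj, der_pow_theta θ hθ]
        ring
    · exact h0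
  refine ⟨hi0, (1 - s) / X ^ i * X ^ p, mul_mem hl (pow_mem_Pw X), ?_, ?_, ?_⟩
  · exact mul_ne_zero (div_ne_zero h1s (pow_ne_zero _ hX)) (pow_ne_zero _ hX)
  · have h3 : X ^ p = X ^ (p - i) * X ^ i := by rw [← pow_add]; congr 1; omega
    have h4 : X ^ (p - i) - (1 - s) / X ^ i * X ^ p = s * X ^ (p - i) := by
      rw [h3]; field_simp; ring
    rw [h4]
    exact mul_ne_zero hs0 (pow_ne_zero _ hX)
  · have h3 : X ^ p = X ^ (p - i) * X ^ i := by rw [← pow_add]; congr 1; omega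
    have h4 : X ^ (p - i) - (1 - s) / X ^ i * X ^ p = s * X ^ (p - i) := by
      rw [h3]; field_simp; ring
    rw [h4]
    have hne : s * X ^ (p - i) ≠ 0 := mul_ne_zero hs0 (pow_ne_zero _ hX)
    have hθs : θ s = - (i * (1 - s)) := by
      rw [← he, map_sub, θ.map_one_eq_zero]; ring
    have hn : ((p - i : ℕ) : L) = - (i : L) := by
      rw [Nat.cast_sub hi.le, CharP.cast_eq_zero L p, zero_sub]
    apply mem_Pw_of_theta hX θ hθ
    · intro D hD
      rw [der_div _ _ _ hne, der_pow_zero D (hK D hD), der_mul, hKs D hD, der_pow_zero D hD]; simp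
    · rw [der_div _ _ _ hne, der_mul, der_pow_theta θ hθ, hθs, hn]
      have h5 : θ (P ^ (p - i)) = -(i : L) * (s⁻¹ * P ^ (p - i)) := by
        have : ∀ j : ℕ, θ (P ^ j) = j * (s⁻¹ * P ^ j) := by
          intro j
          induction j with
          | zero => simp
          | succ j ih => rw [pow_succ, der_mul, ih, hθP']; push_cast; ring
        rw [this, hn]
      rw [h5]
      field_simp
      ring

theorem core {X Y P Q H : L} (hX : X ≠ 0) (hY : Y ≠ 0) (hP : P ≠ 0) (hQ : Q ≠ 0) (hH : H ≠ 0)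
    (θ₁ θ₂ : Der L p) (h11 : θ₁ X = X) (h12 : θ₁ Y = 0) (h21 : θ₂ X = 0) (h22 : θ₂ Y = Y)
    (dXP : Dep p X P) (dYQ : Dep p Y Q) (d1 : Dep p (X / Y) (H / Y))
    (d2 : Dep p (P / Q) (H / Q))
    (ndP : ∀ j : ℕ, P / X ^ j ∉ Pw L p) (ndQ : ∀ j : ℕ, Q / Y ^ j ∉ Pw L p) :
    ∃ n : ℕ, 0 < n ∧ n < p ∧ Good p n X P ∧ Good p n Y Q := by
  have hp : p.Prime := Fact.out
  have hXP : X ∉ Pw L p := fun h => hX (h11 ▸ der_of_mem θ₁ h)
  have hYP : Y ∉ Pw L p := fun h => hY (h22 ▸ der_of_mem θ₂ h)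
  have kP : ∀ D : Der L p, D X = 0 → D P = 0 := dXP.kill θ₁ (by rw [h11]; exact hX)
  have kQ : ∀ D : Der L p, D Y = 0 → D Q = 0 := dYQ.kill θ₂ (by rw [h22]; exact hY)
  have hθP : θ₁ P ≠ 0 := fun h => ndP 0 (by simpa using mem_Pw_of_theta hX θ₁ h11 kP h)
  have hθQ : θ₂ Q ≠ 0 := fun h => ndQ 0 (by simpa using mem_Pw_of_theta hY θ₂ h22 kQ h)
  set s := P / θ₁ P with hsdef
  set t := Q / θ₂ Q with htdef
  have hs : s * θ₁ P = P := by rw [hsdef]; field_simp
  have ht : t * θ₂ Q = Q := by rw [htdef]; field_simp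
  have ks : ∀ D : Der L p, D X = 0 → D s = 0 := by
    intro D hD
    have h1 := congrArg D hs
    rw [der_mul, kill_theta θ₁ h11 kP D hD, kP D hD, mul_zero, zero_add] at h1
    exact (mul_eq_zero.1 h1).resolve_left hθP
  have kt : ∀ D : Der L p, D Y = 0 → D t = 0 := by
    intro D hD
    have h1 := congrArg D ht
    rw [der_mul, kill_theta θ₂ h22 kQ D hD, kQ D hD, mul_zero, zero_add] at h1
    exact (mul_eq_zero.1 h1).resolve_left hθQ
  have h1s : 1 - s ≠ 0 := by
    intro h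
    have hs1 : s = 1 := (sub_eq_zero.1 h).symm
    rw [hs1, one_mul] at hs
    apply ndP 1
    apply mem_Pw_of_theta hX θ₁ h11
    · intro D hD
      rw [pow_one, der_div _ _ _ hX, kP D hD, hD]; simp
    · rw [pow_one, der_div _ _ _ hX, hs, h11]; ring
  have h1t : 1 - t ≠ 0 := by
    intro h
    have ht1 : t = 1 := (sub_eq_zero.1 h).symm
    rw [ht1, one_mul] at ht
    apply ndQ 1
    apply mem_Pw_of_theta hY θ₂ h22
    · intro D hD
      rw [pow_one, der_div _ _ _ hY, kQ D hD, hD]; simp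
    · rw [pow_one, der_div _ _ _ hY, ht, h22]; ring
  -- `H` is homogeneous with respect to two centres
  have hXY : θ₁ (X / Y) ≠ 0 := by
    rw [der_div _ _ _ hY, h11, h12]
    simp [hX, hY]
  have kH1 : ∀ D : Der L p, D (X / Y) = 0 → D H * Y = H * D Y := by
    intro D hD
    have h1 := d1.kill θ₁ hXY D hD
    rw [der_div _ _ _ hY] at h1
    have h2 := (div_eq_zero_iff.1 h1).resolve_right (pow_ne_zero _ hY)
    exact sub_eq_zero.1 h2
  have hPQ : θ₁ (P / Q) ≠ 0 := by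
    rw [der_div _ _ _ hQ, kQ θ₁ h12]
    simp [hθP, hQ]
  have kH2 : ∀ D : Der L p, D (P / Q) = 0 → D H * Q = H * D Q := by
    intro D hD
    have h1 := d2.kill θ₁ hPQ D hD
    rw [der_div _ _ _ hQ] at h1
    have h2 := (div_eq_zero_iff.1 h1).resolve_right (pow_ne_zero _ hQ)
    exact sub_eq_zero.1 h2
  have hab : θ₁ H + θ₂ H = H := by
    have h1 := kH1 (θ₁ + θ₂) (by
      rw [der_div _ _ _ hY]
      simp only [Derivation.add_apply, h11, h12, h21, h22]
      ring)
    simp only [Derivation.add_apply, h12, h22, zero_add] at h1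
    exact mul_right_cancel₀ hY h1
  have hst : s * θ₁ H + t * θ₂ H = H := by
    have h1 := kH2 (s • θ₁ + t • θ₂) (by
      rw [der_div _ _ _ hQ]
      simp only [Derivation.add_apply, Derivation.smul_apply, smul_eq_mul, kP θ₂ h21, kQ θ₁ h12,
        hs, ht]
      ring)
    simp only [Derivation.add_apply, Derivation.smul_apply, smul_eq_mul, kQ θ₁ h12, ht, mul_zero,
      zero_add] at h1
    exact mul_right_cancel₀ hQ h1
  have hcomm : θ₁ (θ₂ H) = θ₂ (θ₁ H) := by
    have hx : ⁅θ₁, θ₂⁆ X = 0 := by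
      rw [Derivation.commutator_apply, h21, h11, h21, map_zero, sub_zero]
    have hy : ⁅θ₁, θ₂⁆ Y = 0 := by
      rw [Derivation.commutator_apply, h22, h12, map_zero, sub_zero]
    have h1 := kH1 ⁅θ₁, θ₂⁆ (by rw [der_div _ _ _ hY, hx, hy]; simp)
    rw [hy, mul_zero] at h1
    have h2 := (mul_eq_zero.1 h1).resolve_right hY
    rw [Derivation.commutator_apply] at h2
    exact sub_eq_zero.1 h2
  have hsnt : s - t ≠ 0 := by
    intro h
    have h1 : s = t := sub_eq_zero.1 h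
    apply h1s
    have h2 : (1 - s) * H = 0 := by
      rw [← h1] at hst
      linear_combination -hst + s * hab
    exact (mul_eq_zero.1 h2).resolve_right hH
  have e1 : θ₁ H * (s - t) = H * (1 - t) := by linear_combination hst - t * hab
  have e2 : θ₂ H * (s - t) = H * (s - 1) := by linear_combination -hst + s * hab
  have E1 := congrArg θ₂ e1
  have E2 := congrArg θ₁ e2
  rw [der_mul, der_mul, map_sub, map_sub, ks θ₂ h21, θ₂.map_one_eq_zero, ← hcomm] at E1
  rw [der_mul, der_mul, map_sub, map_sub, kt θ₁ h12, θ₁.map_one_eq_zero] at E2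
  have eR : θ₁ H * θ₁ s + θ₂ H * θ₂ t = 0 := by
    have e3 : θ₁ H * (1 - s) + θ₂ H * (1 - t) = 0 := by linear_combination hab - hst
    linear_combination E1 - E2 + (θ₁ s + θ₂ t) * hab + e3
  have eK : (1 - t) * θ₁ s = (1 - s) * θ₂ t := by
    have h1 : H * ((1 - t) * θ₁ s - (1 - s) * θ₂ t) = 0 := by
      linear_combination (s - t) * eR - θ₁ s * e1 - θ₂ t * e2
    exact sub_eq_zero.1 ((mul_eq_zero.1 h1).resolve_left hH)
  set κ := θ₁ s / (1 - s) with hκ
  have hκ' : κ = θ₂ t / (1 - t) := by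
    rw [hκ, div_eq_div_iff h1s h1t]; linear_combination eK
  have k1s : ∀ D : Der L p, D X = 0 → D (1 - s) = 0 := by
    intro D hD; rw [map_sub, ks D hD, D.map_one_eq_zero, sub_zero]
  have k1t : ∀ D : Der L p, D Y = 0 → D (1 - t) = 0 := by
    intro D hD; rw [map_sub, kt D hD, D.map_one_eq_zero, sub_zero]
  have hκP : κ ∈ Pw L p := by
    apply mem_Pw_of_theta hX θ₁ h11
    · intro D hD
      rw [hκ, der_div _ _ _ h1s, kill_theta θ₁ h11 ks D hD, k1s D hD]; simp
    · rw [hκ', der_div _ _ _ h1t, kill_theta θ₂ h22 kt θ₁ h12, k1t θ₁ h12]; simp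
  have hes : θ₁ (1 - s) = -κ * (1 - s) := by
    rw [map_sub, θ₁.map_one_eq_zero, hκ]; field_simp; ring
  have het : θ₂ (1 - t) = -κ * (1 - t) := by
    rw [map_sub, θ₂.map_one_eq_zero, hκ']; field_simp; ring
  obtain ⟨i, hi, hκi⟩ := eigen hXP θ₁ h11 k1s h1s (neg_mem hκP) hes
  rw [hκi] at hes het
  obtain ⟨hi0, g1⟩ := one_var hX hXP hP θ₁ h11 kP ndP hs i hi hes h1s
  obtain ⟨-, g2⟩ := one_var hY hYP hQ θ₂ h22 kQ ndQ ht i hi het h1t
  exact ⟨p - i, by omega, by omega, g1, g2⟩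

lemma exists_theta {X : L} (hXP : X ∉ Pw L p) : ∃ θ : Der L p, θ X = X := by
  obtain ⟨D, hD⟩ := exists_der_one hXP
  exact ⟨X • D, by simp [hD]⟩

lemma natCast_eq_of_pow_div_mem {X : L} (hX : X ≠ 0) (hXP : X ∉ Pw L p) {n n' : ℕ}
    (h : X ^ n / X ^ n' ∈ Pw L p) : (n : L) = n' := by
  obtain ⟨θ, hθ⟩ := exists_theta hXP
  have h1 := der_of_mem θ h
  rw [der_div _ _ _ (pow_ne_zero _ hX), der_pow_theta θ hθ, der_pow_theta θ hθ] at h1
  have h2 := (div_eq_zero_iff.1 h1).resolve_right (pow_ne_zero _ (pow_ne_zero _ hX))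
  have h3 : ((n : L) - n') * (X ^ n * X ^ n') = 0 := by linear_combination h2
  exact sub_eq_zero.1
    ((mul_eq_zero.1 h3).resolve_right (mul_ne_zero (pow_ne_zero _ hX) (pow_ne_zero _ hX)))

lemma Good.eq_theta {X P : L} (hP : P ≠ 0) {n : ℕ} (hn0 : 0 < n) (hn : n < p) (θ : Der L p)
    (hθ : θ X = X) {l : L} (hl : l ∈ Pw L p) (hne : X ^ n - l ≠ 0)
    (h : P ^ n / (X ^ n - l) ∈ Pw L p) : θ P * (X ^ n - l) = P * X ^ n := by
  have h1 := der_of_mem θ h
  rw [der_div _ _ _ hne, map_sub, der_of_mem θ hl, der_pow_theta θ hθ] at h1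
  have h2 := (div_eq_zero_iff.1 h1).resolve_right (pow_ne_zero _ hne)
  obtain ⟨m, rfl⟩ : ∃ m, n = m + 1 := ⟨n - 1, by omega⟩
  rw [Derivation.leibniz_pow] at h2
  simp only [add_tsub_cancel_right, smul_eq_mul, nsmul_eq_mul, sub_zero] at h2
  have hn' : ((m + 1 : ℕ) : L) ≠ 0 := by
    rw [Ne, CharP.cast_eq_zero_iff L p]
    exact Nat.not_dvd_of_pos_of_lt hn0 hn
  have h3 : ((m + 1 : ℕ) : L) * P ^ m * (θ P * (X ^ (m + 1) - l) - P * X ^ (m + 1)) = 0 := by
    linear_combination h2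
  exact sub_eq_zero.1 ((mul_eq_zero.1 h3).resolve_left (mul_ne_zero hn' (pow_ne_zero _ hP)))

lemma good_unique {X P : L} (hX : X ≠ 0) (hXP : X ∉ Pw L p) (hP : P ≠ 0) {n n' : ℕ}
    (hn0 : 0 < n) (hn : n < p) (hn0' : 0 < n') (hn' : n' < p)
    (g : Good p n X P) (g' : Good p n' X P) : n = n' := by
  obtain ⟨θ, hθ⟩ := exists_theta hXP
  obtain ⟨l, hl, hl0, hne, h⟩ := g
  obtain ⟨l', hl', hl0', hne', h'⟩ := g'
  have e := Good.eq_theta hP hn0 hn θ hθ hl hne h
  have e' := Good.eq_theta hP hn0' hn' θ hθ hl' hne' h'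
  have h1 : P * (l * X ^ n' - l' * X ^ n) = 0 := by
    linear_combination (X ^ n - l) * e' - (X ^ n' - l') * e
  have h2 : l * X ^ n' = l' * X ^ n := sub_eq_zero.1 ((mul_eq_zero.1 h1).resolve_left hP)
  have h3 : X ^ n / X ^ n' = l / l' := by
    rw [div_eq_div_iff (pow_ne_zero _ hX) hl0']; linear_combination -h2
  have h4 := natCast_eq_of_pow_div_mem (p := p) hX hXP (h3 ▸ div_mem hl hl')
  have h5 := (CharP.natCast_eq_natCast L p).1 h4
  exact Nat.ModEq.eq_of_lt_of_lt h5 hn hn'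

end Crest.Agent.H1Milnor
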