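import Mathlib

/-!
Derivations of a field of characteristic `p` over its subfield of `p`-th powers.
-/

set_option autoImplicit false

namespace Crest.Agent.H1Milnor

open Polynomial IntermediateField

variable (L : Type*) [Field L] (p : ℕ) [Fact p.Prime] [CharP L p]

/-- The subfield of `p`-th powers. -/
abbrev Pw : Subfield L := (frobenius L p).fieldRange

/-- Derivations over the subfield of `p`-th powers. -/
abbrev Der : Type _ := Derivation (Pw L p) L L

variable {L p}

lemma mem_Pw {x : L} : x ∈ Pw L p ↔ ∃ y : L, y ^ p = x := by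
  simp [Pw, RingHom.mem_fieldRange, frobenius_def]

lemma pow_mem_Pw (y : L) : y ^ p ∈ Pw L p := mem_Pw.2 ⟨y, rfl⟩

lemma natCast_mem_Pw (n : ℕ) : (n : L) ∈ Pw L p := natCast_mem _ n

lemma der_of_mem (D : Der L p) {u : L} (hu : u ∈ Pw L p) : D u = 0 :=
  D.map_algebraMap (⟨u, hu⟩ : Pw L p)

lemma der_mul_of_mem (D : Der L p) {u : L} (hu : u ∈ Pw L p) (x : L) : D (u * x) = u * D x := by
  rw [Derivation.leibniz, der_of_mem D hu]; simp

section general

variable {M : Type*} [Field M] [Algebra M L]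

lemma minpoly_eq (hM : ∀ x : L, x ^ p ∈ (algebraMap M L).range) {u : L}
    (hu : u ∉ (algebraMap M L).range) :
    ∃ a : M, algebraMap M L a = u ^ p ∧ minpoly M u = X ^ p - C a := by
  obtain ⟨a, ha⟩ := hM u
  refine ⟨a, ha, ?_⟩
  have hp : p.Prime := Fact.out
  symm
  apply minpoly.eq_of_irreducible_of_monic
  · apply X_pow_sub_C_irreducible_of_prime hp
    intro b hb
    apply hu
    refine ⟨b, ?_⟩
    have h1 : (algebraMap M L b) ^ p = u ^ p := by rw [← map_pow, hb, ha]
    exact frobenius_inj L p (by simpa [frobenius_def] using h1)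
  · simp [ha]
  · exact monic_X_pow_sub_C a hp.ne_zero

omit [CharP L p] in
lemma isIntegral_of_pow (hM : ∀ x : L, x ^ p ∈ (algebraMap M L).range) (u : L) :
    IsIntegral M u := by
  obtain ⟨a, ha⟩ := hM u
  have hp : p.Prime := Fact.out
  refine ⟨X ^ p - C a, monic_X_pow_sub_C a hp.ne_zero, ?_⟩
  simp [ha]

lemma finrank_adjoin (hM : ∀ x : L, x ^ p ∈ (algebraMap M L).range) {u : L}
    (hu : u ∉ (algebraMap M L).range) : Module.finrank M M⟮u⟯ = p := by
  obtain ⟨a, -, ha⟩ := minpoly_eq hM hu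
  rw [adjoin.finrank (isIntegral_of_pow hM u), ha, natDegree_X_pow_sub_C]

end general

theorem exists_der (M : IntermediateField (Pw L p) L) (u : L) (hu : u ∉ M) :
    ∃ D : Der L p, (∀ m ∈ M, D m = 0) ∧ D u = 1 := by
  have hp : p.Prime := Fact.out
  obtain ⟨N, hMN, hN⟩ := zorn_le_nonempty₀ {N : IntermediateField (Pw L p) L | u ∉ N}
    (fun c hc hchain y hy => by
      have : Nonempty c := ⟨⟨y, hy⟩⟩
      refine ⟨⨆ i : c, (i : IntermediateField (Pw L p) L), ?_, fun z hz => ?_⟩
      · intro hmem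
        have hdir : Directed (· ≤ ·) (fun i : c => (i : IntermediateField (Pw L p) L)) :=
          hchain.directedOn.directed_val
        rw [← SetLike.mem_coe, coe_iSup_of_directed hdir, Set.mem_iUnion] at hmem
        obtain ⟨i, hi⟩ := hmem
        exact hc i.2 hi
      · exact le_iSup (fun i : c => (i : IntermediateField (Pw L p) L)) ⟨z, hz⟩) M hu
  have huN : u ∉ N := hN.1
  have hpow : ∀ x : L, x ^ p ∈ (algebraMap N L).range := fun x =>
    ⟨⟨x ^ p, N.algebraMap_mem (⟨x ^ p, pow_mem_Pw x⟩ : Pw L p)⟩, rfl⟩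
  have hrange : ∀ x : L, x ∈ (algebraMap N L).range ↔ x ∈ N := fun x =>
    ⟨fun ⟨y, hy⟩ => hy ▸ y.2, fun h => ⟨⟨x, h⟩, rfl⟩⟩
  have huN' : u ∉ (algebraMap N L).range := fun h => huN ((hrange u).1 h)
  have htop : ∀ v : L, v ∈ N⟮u⟯ := by
    intro v
    by_contra hv
    have hvN : v ∉ N := fun h => hv (N⟮u⟯.algebraMap_mem (⟨v, h⟩ : N))
    have hvN' : v ∉ (algebraMap N L).range := fun h => hvN ((hrange v).1 h)
    have huv : u ∈ N⟮v⟯ := by
      by_contra huv
      have hle : N ≤ (N⟮v⟯).restrictScalars (Pw L p) := fun x hx =>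
        N⟮v⟯.algebraMap_mem (⟨x, hx⟩ : N)
      have := hN.2 (y := (N⟮v⟯).restrictScalars (Pw L p)) huv hle
      exact hvN (this (mem_adjoin_simple_self N v))
    have : FiniteDimensional N N⟮v⟯ := adjoin.finiteDimensional (isIntegral_of_pow hpow v)
    have hle : N⟮u⟯ ≤ N⟮v⟯ := adjoin_simple_le_iff.2 huv
    have heq : N⟮u⟯ = N⟮v⟯ := eq_of_le_of_finrank_eq hle
      (by rw [finrank_adjoin hpow huN', finrank_adjoin hpow hvN'])
    exact hv (heq ▸ mem_adjoin_simple_self N v)
  have hsurj : Function.Surjective (aeval u : N[X] →ₐ[N] L) := by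
    intro v
    have h1 : v ∈ (N⟮u⟯).toSubalgebra := htop v
    rw [adjoin_simple_toSubalgebra_of_isAlgebraic (isIntegral_of_pow hpow u).isAlgebraic,
      Algebra.adjoin_singleton_eq_range_aeval] at h1
    exact h1
  obtain ⟨a, ha, hmin⟩ := minpoly_eq hpow huN'
  have hd : ∀ q : N[X], (aeval u : N[X] →ₐ[N] L) q = 0 →
      (aeval u : N[X] →ₐ[N] L) ((derivative' : Derivation N N[X] N[X]) q) = 0 := by
    intro q hq
    obtain ⟨r, hr⟩ := minpoly.dvd N u hq
    rw [hr, hmin]
    have : (p : L) = 0 := CharP.cast_eq_zero L p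
    simp [ha, derivative_X_pow]
  let D : Derivation N L L := Derivation.liftOfSurjective hsurj hd
  refine ⟨D.restrictScalars (Pw L p), fun m hm => ?_, ?_⟩
  · exact D.map_algebraMap (⟨m, hMN hm⟩ : N)
  · have := Derivation.liftOfSurjective_apply hsurj hd (X : N[X])
    simpa using this

lemma mem_Pw_of_der {u : L} (h : ∀ D : Der L p, D u = 0) : u ∈ Pw L p := by
  by_contra hu
  have : u ∉ (⊥ : IntermediateField (Pw L p) L) := by
    rw [IntermediateField.mem_bot]
    rintro ⟨y, hy⟩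
    exact hu (hy ▸ y.2)
  obtain ⟨D, -, hD⟩ := exists_der ⊥ u this
  rw [h D] at hD
  exact zero_ne_one hD

lemma exists_der_one {u : L} (hu : u ∉ Pw L p) : ∃ D : Der L p, D u = 1 := by
  have : u ∉ (⊥ : IntermediateField (Pw L p) L) := by
    rw [IntermediateField.mem_bot]
    rintro ⟨y, hy⟩
    exact hu (hy ▸ y.2)
  obtain ⟨D, -, hD⟩ := exists_der ⊥ u this
  exact ⟨D, hD⟩

lemma mem_adjoin_of_der {X w : L} (h : ∀ D : Der L p, D X = 0 → D w = 0) :
    w ∈ (Pw L p)⟮X⟯ := by
  by_contra hw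
  obtain ⟨D, hD0, hD⟩ := exists_der _ w hw
  rw [h D (hD0 X (mem_adjoin_simple_self _ X))] at hD
  exact zero_ne_one hD

/-- If `θ X = X`, an element killed by `θ` and by every derivation killing `X` is a `p`-th power. -/
lemma mem_Pw_of_theta {X w : L} (hX : X ≠ 0) (θ : Der L p) (hθ : θ X = X)
    (h : ∀ D : Der L p, D X = 0 → D w = 0) (hw : θ w = 0) : w ∈ Pw L p := by
  apply mem_Pw_of_der
  intro D
  have h1 := h (D - (D X / X) • θ) (by
    simp only [Derivation.sub_apply, Derivation.smul_apply, hθ, smul_eq_mul]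
    field_simp
    ring)
  simpa [hw] using h1

/-- Eigenvalues of `θ` on `Pw(X)` are natural numbers below `p`. -/
lemma eigen {X w κ : L} (hX : X ∉ Pw L p) (θ : Der L p) (hθ : θ X = X)
    (h : ∀ D : Der L p, D X = 0 → D w = 0) (hw : w ≠ 0) (hκ : κ ∈ Pw L p)
    (he : θ w = κ * w) : ∃ i : ℕ, i < p ∧ κ = i := by
  have hp : p.Prime := Fact.out
  have hpow : ∀ x : L, x ^ p ∈ (algebraMap (Pw L p) L).range := fun x =>
    ⟨⟨x ^ p, pow_mem_Pw x⟩, rfl⟩
  have hX' : X ∉ (algebraMap (Pw L p) L).range := fun ⟨y, hy⟩ => hX (hy ▸ y.2)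
  have hint := isIntegral_of_pow hpow X
  have h1 : w ∈ ((Pw L p)⟮X⟯).toSubalgebra := mem_adjoin_of_der h
  rw [adjoin_simple_toSubalgebra_of_isAlgebraic hint.isAlgebraic,
      Algebra.adjoin_singleton_eq_range_aeval] at h1
  obtain ⟨q₀, hq₀⟩ := h1
  obtain ⟨a, ha, hmin⟩ := minpoly_eq hpow hX'
  set q := q₀ %ₘ (minpoly (Pw L p) X) with hq
  have hqw : aeval X q = w := by
    rw [hq, minpoly.aeval_modByMonic_minpoly]; exact hq₀
  have hdeg : q.degree < (minpoly (Pw L p) X).degree :=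
    degree_modByMonic_lt q₀ (minpoly.monic hint)
  have hq0 : q ≠ 0 := by
    rintro h0
    rw [h0, map_zero] at hqw
    exact hw hqw.symm
  let k : Pw L p := ⟨κ, hκ⟩
  let r : (Pw L p)[X] := Polynomial.X * derivative q - C k * q
  have hr : aeval X r = 0 := by
    have h2 := θ.map_aeval q X
    rw [hqw, he, hθ, smul_eq_mul] at h2
    simp only [r, map_sub, map_mul, aeval_X, aeval_C, hqw]
    change X * aeval X (derivative q) - κ * w = 0
    rw [h2]; ring
  have hcoeff : ∀ i : ℕ, r.coeff i = ((i : Pw L p) - k) * q.coeff i := by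
    intro i
    simp only [r, coeff_sub, coeff_C_mul]
    cases i with
    | zero => simp
    | succ j => rw [coeff_X_mul, coeff_derivative]; push_cast; ring
  have hrdeg : r.degree < (minpoly (Pw L p) X).degree := by
    refine lt_of_le_of_lt ?_ hdeg
    rw [degree_le_iff_coeff_zero]
    intro m hm
    rw [hcoeff, coeff_eq_zero_of_degree_lt hm, mul_zero]
  have hr0 : r = 0 := by
    by_contra hr0
    exact absurd (minpoly.degree_le_of_ne_zero (Pw L p) X hr0 hr) (not_le.2 hrdeg)
  refine ⟨q.natDegree, ?_, ?_⟩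
  · have := natDegree_lt_natDegree hq0 hdeg
    rwa [hmin, natDegree_X_pow_sub_C] at this
  · have h3 := hcoeff q.natDegree
    rw [hr0, coeff_zero] at h3
    have h4 : q.coeff q.natDegree ≠ 0 := by
      rw [coeff_natDegree]; exact leadingCoeff_ne_zero.2 hq0
    have h5 := (mul_eq_zero.1 h3.symm).resolve_right h4
    have h6 : k = (q.natDegree : Pw L p) := (sub_eq_zero.1 h5).symm
    have := congrArg (fun z : Pw L p => (z : L)) h6
    simpa [k] using this

end Crest.Agent.H1Milnor
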