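import Crest.Agent.H1Milnor.Deriv

/-!
Two finiteness facts on finitely generated fields of characteristic `p`.
-/

set_option autoImplicit false

namespace Crest.Agent.H1Milnor

open Polynomial IntermediateField

variable {p : ℕ} [Fact p.Prime]
variable {K : Type*} [Field K] [CharP K p]

omit [Fact p.Prime] [CharP K p] in
lemma essFiniteType_of_closure (k : Subfield K)
    (hK : ∃ s : Finset K, Subfield.closure ((k : Set K) ∪ (s : Set K)) = ⊤) :
    Algebra.EssFiniteType k K := by
  rw [← IntermediateField.fg_top_iff]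
  obtain ⟨s, hs⟩ := hK
  refine ⟨s, ?_⟩
  apply IntermediateField.toSubfield_injective
  rw [IntermediateField.adjoin_toSubfield, IntermediateField.top_toSubfield, ← hs]
  congr 2
  ext x
  exact ⟨fun ⟨y, hy⟩ => hy ▸ y.2, fun h => ⟨⟨x, h⟩, rfl⟩⟩

lemma exists_notMem_adjoin (k : Subfield K) [Algebra.EssFiniteType k K]
    (hK2 : 2 ≤ Algebra.trdeg k K) (x : K) : ∃ y : K, y ∉ (Pw K p)⟮x⟯ := by
  by_contra hcon
  have hall : ∀ y : K, y ∈ (Pw K p)⟮x⟯ := fun y => by
    by_contra h
    exact hcon ⟨y, h⟩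
  have hE : Algebra.EssFiniteType k⟮x⟯ K := Algebra.EssFiniteType.of_comp k k⟮x⟯ K
  have hD : ∀ y : K, KaehlerDifferential.D k⟮x⟯ K y = 0 := by
    intro y
    have hy := hall y
    induction hy using IntermediateField.adjoin_induction with
    | mem z hz =>
      rw [Set.mem_singleton_iff.1 hz]
      exact (KaehlerDifferential.D k⟮x⟯ K).map_algebraMap ⟨x, mem_adjoin_simple_self k x⟩
    | algebraMap z =>
      obtain ⟨w, hw⟩ := mem_Pw.1 z.2
      have : algebraMap (Pw K p) K z = w ^ p := hw.symm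
      rw [this, Derivation.leibniz_pow, ← Nat.cast_smul_eq_nsmul K, CharP.cast_eq_zero K p,
        zero_smul]
    | add a b _ _ ha hb => rw [map_add, ha, hb, add_zero]
    | inv a _ ha => rw [Derivation.leibniz_inv, ha, smul_zero]
    | mul a b _ _ ha hb => rw [Derivation.leibniz, ha, hb, smul_zero, smul_zero, add_zero]
  have hsub : Subsingleton (KaehlerDifferential k⟮x⟯ K) := by
    have h1 := KaehlerDifferential.span_range_derivation k⟮x⟯ K
    have h2 : Submodule.span K (Set.range (KaehlerDifferential.D k⟮x⟯ K)) = ⊥ := by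
      rw [Submodule.span_eq_bot]
      rintro _ ⟨y, rfl⟩
      exact hD y
    rw [h2] at h1
    exact (Submodule.subsingleton_iff K).1 (subsingleton_of_bot_eq_top h1)
  have hU : Algebra.FormallyUnramified k⟮x⟯ K := ⟨hsub⟩
  have hS : Algebra.IsSeparable k⟮x⟯ K := Algebra.FormallyUnramified.isSeparable k⟮x⟯ K
  have hA : Algebra.IsAlgebraic k⟮x⟯ K := inferInstance
  rw [IntermediateField.isAlgebraic_adjoin_iff_top] at hA
  have h3 := Algebra.IsAlgebraic.trdeg_le_cardinalMk k ({x} : Set K)
  rw [Cardinal.mk_singleton] at h3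
  have h4 := hK2.trans h3
  norm_num at h4

omit [CharP K p] in
lemma mem_of_forall_pow (k : Subfield K) [IsAlgClosed k] [Algebra.EssFiniteType k K] {x : K}
    (hx : ∀ n : ℕ, ∃ y : K, y ^ (p ^ n) = x) : x ∈ k := by
  have hp : p.Prime := Fact.out
  have halg : IsAlgebraic k x := by
    by_contra htr
    have hx0 : x ≠ 0 := by
      rintro rfl
      exact htr isAlgebraic_zero
    have hind : AlgebraicIndepOn k id ({x} : Set K) :=
      algebraicIndependent_unique_type_iff.mpr htr
    obtain ⟨t, hxt, ht⟩ := exists_isTranscendenceBasis_superset hind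
    have hxt' : x ∈ t := hxt (Set.mem_singleton x)
    set E := IntermediateField.adjoin k (Set.range ((↑) : t → K)) with hE
    have hA : Algebra.IsAlgebraic E K := ht.isAlgebraic_field
    have hE' : Algebra.EssFiniteType E K := Algebra.EssFiniteType.of_comp k E K
    have hfin : Module.Finite E K := Algebra.finite_of_essFiniteType_of_isAlgebraic
    set N := Module.finrank E K with hN
    have hN0 : 0 < N := Module.finrank_pos
    obtain ⟨y, hy⟩ := hx N
    have hxE : x ∈ E := IntermediateField.subset_adjoin _ _ ⟨⟨x, hxt'⟩, rfl⟩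
    have h1 : (Algebra.norm E y) ^ (p ^ N) = (⟨x, hxE⟩ : E) ^ N := by
      rw [← map_pow, hy]
      exact Algebra.norm_algebraMap (⟨x, hxE⟩ : E)
    have h2 : ((Algebra.norm E y : E) : K) ^ (p ^ N) = x ^ N := by
      have := congrArg (fun z : E => (z : K)) h1
      simpa using this
    obtain ⟨r, s, hrs⟩ := (IntermediateField.mem_adjoin_range_iff k ((↑) : t → K) _).1
      (Algebra.norm E y).2
    rw [hrs] at h2
    have hs0 : MvPolynomial.aeval ((↑) : t → K) s ≠ 0 := by
      intro h0
      rw [h0, div_zero, zero_pow (pow_ne_zero _ hp.ne_zero)] at h2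
      exact pow_ne_zero _ hx0 h2.symm
    have hs0' : s ≠ 0 := by
      rintro rfl
      exact hs0 (map_zero _)
    have h3 : r ^ (p ^ N) = MvPolynomial.X ⟨x, hxt'⟩ ^ N * s ^ (p ^ N) := by
      apply ht.1
      simp only [map_mul, map_pow, MvPolynomial.aeval_X]
      rw [← h2, div_pow, div_mul_cancel₀ _ (pow_ne_zero _ hs0)]
    have hr0 : r ≠ 0 := by
      rintro rfl
      rw [zero_pow (pow_ne_zero _ hp.ne_zero)] at h3
      exact mul_ne_zero (pow_ne_zero _ (MvPolynomial.X_ne_zero _)) (pow_ne_zero _ hs0') h3.symm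
    have h4 := congrArg (MvPolynomial.degreeOf (⟨x, hxt'⟩ : t)) h3
    rw [MvPolynomial.degreeOf_mul_eq (pow_ne_zero _ (MvPolynomial.X_ne_zero _))
      (pow_ne_zero _ hs0'), MvPolynomial.degreeOf_pow_eq _ _ _ hr0,
      MvPolynomial.degreeOf_pow_eq _ _ _ hs0', MvPolynomial.degreeOf_X_self_pow] at h4
    have h5 : p ^ N ∣ N := by
      have h6 : p ^ N ∣ N + p ^ N * MvPolynomial.degreeOf (⟨x, hxt'⟩ : t) s :=
        h4 ▸ Dvd.intro _ rfl
      exact (Nat.dvd_add_left (Dvd.intro _ rfl)).1 h6
    exact absurd (Nat.le_of_dvd hN0 h5) (not_le.2 (Nat.lt_pow_self hp.one_lt))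
  have hint : IsIntegral k x := halg.isIntegral
  obtain ⟨y, hy⟩ := minpoly.mem_range_of_degree_eq_one k x
    (IsAlgClosed.degree_eq_one_of_irreducible k (minpoly.irreducible hint))
  exact hy ▸ y.2

omit [CharP K p] in
lemma forall_pow_of_mem (k : Subfield K) [IsAlgClosed k] {x : K} (hx : x ∈ k) (n : ℕ) :
    ∃ y : K, y ^ (p ^ n) = x := by
  have hp : p.Prime := Fact.out
  obtain ⟨y, hy⟩ := IsAlgClosed.exists_pow_nat_eq (⟨x, hx⟩ : k) (n := p ^ n)
    (pow_pos hp.pos n)
  exact ⟨y, by simpa using congrArg (fun z : k => (z : K)) hy⟩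

end Crest.Agent.H1Milnor
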